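import Vale.Agent.P066.GFinal

/-!
# P066: `ℕ[q]` `e`-positivity when every block has a clique interior (no connectivity assumed)

The statement uses no definition of ours.  As in the problem, `h` is weakly increasing with
`a ≤ h a ≤ n - 1` on the `n ≥ 1` vertices `0, ..., n - 1` (the problem's labels minus one), and
`{a, b}` with `a < b` is an edge of `G(h)` iff `b ≤ h a`.

Hypothesis `hsep`: whenever `a < b` are not adjacent, some vertex `s` with `a ≤ s ≤ b` has no edge
jumping over it (no edge `{x, y}` with `x < s < y`).  Equivalently: cut the vertex set at all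
vertices with no edge jumping over them; the vertices strictly between two consecutive such
vertices are pairwise adjacent.

The left side of the displayed identity is the chromatic quasisymmetric function of `G(h)` in the
`N` variables `x_0, ..., x_{N-1}`: the sum over the proper colourings `f` of
`q ^ asc(f) * ∏ x_{f a}`.  The right side is `∑ c_lambda(q) e_lambda(x_0, ..., x_{N-1})`.
-/

namespace Vale.Agent.Results.P066.BlockInteriorCliques

open MvPolynomial Finset

theorem result (n : ℕ) (hn : 1 ≤ n) (h : ℕ → ℕ)
    (hmono : ∀ a b, a ≤ b → b < n → h a ≤ h b)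
    (hrange : ∀ a, a < n → a ≤ h a ∧ h a < n)
    (hsep : ∀ a b, a < b → b < n → h a < b → ∃ s, a ≤ s ∧ s ≤ b ∧ ∀ x, x < s → h x ≤ s) :
    ∃ c : Nat.Partition n → Polynomial ℕ,
      (∀ N : ℕ,
        (∑ f : Fin n → Fin N,
          if (∀ a b : Fin n, a < b → (b : ℕ) ≤ h a → f a ≠ f b) then
            C (Polynomial.X ^ (univ.filter (fun p : Fin n × Fin n =>
              p.1 < p.2 ∧ (p.2 : ℕ) ≤ h p.1 ∧ f p.1 < f p.2)).card) * ∏ a : Fin n, X (f a)
          else 0 : MvPolynomial (Fin N) (Polynomial ℤ))
        = ∑ p : Nat.Partition n, C ((c p).map (Nat.castRingHom ℤ)) *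
            (p.parts.map (fun i => esymm (Fin N) (Polynomial ℤ) i)).prod) ∧
      ∀ c' : Nat.Partition n → Polynomial ℤ,
        (∀ N : ℕ,
          (∑ f : Fin n → Fin N,
            if (∀ a b : Fin n, a < b → (b : ℕ) ≤ h a → f a ≠ f b) then
              C (Polynomial.X ^ (univ.filter (fun p : Fin n × Fin n =>
                p.1 < p.2 ∧ (p.2 : ℕ) ≤ h p.1 ∧ f p.1 < f p.2)).card) * ∏ a : Fin n, X (f a)
            else 0 : MvPolynomial (Fin N) (Polynomial ℤ))
          = ∑ p : Nat.Partition n, C (c' p) *
              (p.parts.map (fun i => esymm (Fin N) (Polynomial ℤ) i)).prod) →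
        ∀ p, c' p = (c p).map (Nat.castRingHom ℤ) := by
  obtain ⟨m, rfl⟩ : ∃ m, n = m + 1 := ⟨n - 1, by omega⟩
  exact Vale.Agent.P066.sep_epos m h (fun a b hab hb => hmono a b hab (by omega))
    (fun a ha => ⟨(hrange a (by omega)).1, by have := (hrange a (by omega)).2; omega⟩)
    (fun a b hab hb hh => hsep a b hab (by omega) hh)

end Vale.Agent.Results.P066.BlockInteriorCliques
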