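import Vale.Agent.P066.DFinal

/-!
# P066: `ℕ[q]` `e`-positivity for chains of blocks with clique interior

Vertices are `0, ..., n`; `{a, b}` with `a < b` is an edge of `G(h)` iff `b ≤ h a`; `h` is weakly
increasing and `a < h a` (the graph is connected).
`v 0 = 0 < v 1 < ... < v l = n` are cut vertices (`hcut`: no edge jumps over `v (t+1)`), and the
vertices strictly between two consecutive cut vertices are pairwise adjacent (`hclq`).  The way the
two end vertices of a block are joined to its interior is arbitrary.
The conclusion gives coefficients in `ℕ[q]`, valid in any number of variables, and says that they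
are the only coefficients in `ℤ[q]` with this property.
-/

namespace Vale.Agent.Results.P066.CliqueInteriorChains

open MvPolynomial Finset Vale.Agent.P066

theorem result (n l : ℕ) (h v : ℕ → ℕ) (hv0 : v 0 = 0) (hvl : v l = n)
    (hv : ∀ t, t < l → v t < v (t + 1))
    (hmono : ∀ a b, a ≤ b → b < n → h a ≤ h b) (hconn : ∀ a, a < n → a < h a)
    (hcut : ∀ t, t < l → ∀ a, a < v (t + 1) → h a ≤ v (t + 1))
    (hclq : ∀ t, t < l → ∀ a, v t < a → a < v (t + 1) → v (t + 1) ≤ h a + 1) :
    ∃ c : Nat.Partition (n + 1) → Polynomial ℕ,
      (∀ N, chromQ (n + 1) h N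
        = ∑ p : Nat.Partition (n + 1), C ((c p).map (Nat.castRingHom ℤ)) * ePart N p) ∧
      ∀ c' : Nat.Partition (n + 1) → Polynomial ℤ,
        (∀ N, chromQ (n + 1) h N = ∑ p : Nat.Partition (n + 1), C (c' p) * ePart N p) →
        ∀ p, c' p = (c p).map (Nat.castRingHom ℤ) :=
  dchain_epos n l h v hv0 hvl hv hmono hconn hcut hclq

end Vale.Agent.Results.P066.CliqueInteriorChains
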