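import Vale.Agent.P066.DFinal

/-!
# P066: `ℕ[q]` `e`-positivity for chains of blocks with clique interior, stated in Mathlib terms only

The statement uses no definition of ours.  Vertices are `0, ..., n`; `{a, b}` with `a < b` is an
edge of `G(h)` iff `b ≤ h a`; `h` is weakly increasing and `a < h a` (the graph is connected).
`v 0 = 0 < v 1 < ... < v l = n` are cut vertices (`hcut`: no edge jumps over `v (t+1)`), and the
vertices strictly between two consecutive cut vertices are pairwise adjacent (`hclq`).  The way the
two end vertices of a block are joined to its interior is arbitrary.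

The left side of the displayed identity is the chromatic quasisymmetric function of `G(h)` in the
`N` variables `x_0, ..., x_{N-1}`: the sum over the proper colourings `f` of
`q ^ asc(f) * ∏ x_{f a}`.  The right side is `∑ c_lambda(q) e_lambda(x_0, ..., x_{N-1})`.
The conclusion gives coefficients in `ℕ[q]`, valid in any number of variables, and says that they
are the only coefficients in `ℤ[q]` with this property.
-/

namespace Vale.Agent.Results.P066.CliqueInteriorChainsExplicit

open MvPolynomial Finset

theorem result (n l : ℕ) (h v : ℕ → ℕ) (hv0 : v 0 = 0) (hvl : v l = n)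
    (hv : ∀ t, t < l → v t < v (t + 1))
    (hmono : ∀ a b, a ≤ b → b < n → h a ≤ h b) (hconn : ∀ a, a < n → a < h a)
    (hcut : ∀ t, t < l → ∀ a, a < v (t + 1) → h a ≤ v (t + 1))
    (hclq : ∀ t, t < l → ∀ a, v t < a → a < v (t + 1) → v (t + 1) ≤ h a + 1) :
    ∃ c : Nat.Partition (n + 1) → Polynomial ℕ,
      (∀ N : ℕ,
        (∑ f : Fin (n + 1) → Fin N,
          if (∀ a b : Fin (n + 1), a < b → (b : ℕ) ≤ h a → f a ≠ f b) then
            C (Polynomial.X ^ (univ.filter (fun p : Fin (n + 1) × Fin (n + 1) =>
              p.1 < p.2 ∧ (p.2 : ℕ) ≤ h p.1 ∧ f p.1 < f p.2)).card) * ∏ a : Fin (n + 1), X (f a)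
          else 0 : MvPolynomial (Fin N) (Polynomial ℤ))
        = ∑ p : Nat.Partition (n + 1), C ((c p).map (Nat.castRingHom ℤ)) *
            (p.parts.map (fun i => esymm (Fin N) (Polynomial ℤ) i)).prod) ∧
      ∀ c' : Nat.Partition (n + 1) → Polynomial ℤ,
        (∀ N : ℕ,
          (∑ f : Fin (n + 1) → Fin N,
            if (∀ a b : Fin (n + 1), a < b → (b : ℕ) ≤ h a → f a ≠ f b) then
              C (Polynomial.X ^ (univ.filter (fun p : Fin (n + 1) × Fin (n + 1) =>
                p.1 < p.2 ∧ (p.2 : ℕ) ≤ h p.1 ∧ f p.1 < f p.2)).card) * ∏ a : Fin (n + 1), X (f a)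
            else 0 : MvPolynomial (Fin N) (Polynomial ℤ))
          = ∑ p : Nat.Partition (n + 1), C (c' p) *
              (p.parts.map (fun i => esymm (Fin N) (Polynomial ℤ) i)).prod) →
        ∀ p, c' p = (c p).map (Nat.castRingHom ℤ) :=
  Vale.Agent.P066.dchain_epos n l h v hv0 hvl hv hmono hconn hcut hclq

end Vale.Agent.Results.P066.CliqueInteriorChainsExplicit
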