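import Vale.Agent.P066.GFinal

/-!
# P066: the clique-interior family, stated for `SimpleGraph`s

The statement uses no definition of ours.  `G` is a simple graph on the vertices `0, ..., n`.

* `hnui` says that `G` is a natural unit interval graph: if `a < b < c` and `a, c` are adjacent then
  so are `a, b` and `b, c`.  These are exactly the graphs `G(h)` of the problem
  (`h a` is the largest vertex that equals `a` or is adjacent to `a`).
* `hsep`: whenever `a < b` are not adjacent, some vertex `s` with `a ≤ s ≤ b` has no edge jumping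
  over it.  Equivalently, every block of `G` minus its smallest and largest vertex is a clique.

The left side of the displayed identity is the chromatic quasisymmetric function of `G` in the
`N` variables `x_0, ..., x_{N-1}`: the sum over the proper colourings `f` of
`q ^ asc(f) * ∏ x_{f a}`.  The right side is `∑ c_lambda(q) e_lambda(x_0, ..., x_{N-1})`.
-/

namespace Vale.Agent.Results.P066.GraphFormCliqueInteriors

open MvPolynomial Finset

theorem result (n : ℕ) (G : SimpleGraph (Fin (n + 1))) [DecidableRel G.Adj]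
    (hnui : ∀ a b c : Fin (n + 1), a < b → b < c → G.Adj a c → G.Adj a b ∧ G.Adj b c)
    (hsep : ∀ a b : Fin (n + 1), a < b → ¬ G.Adj a b →
      ∃ s, a ≤ s ∧ s ≤ b ∧ ∀ x y, x < s → s < y → ¬ G.Adj x y) :
    ∃ c : Nat.Partition (n + 1) → Polynomial ℕ,
      (∀ N : ℕ,
        (∑ f ∈ univ.filter (fun f : Fin (n + 1) → Fin N => ∀ a b, G.Adj a b → f a ≠ f b),
            C (Polynomial.X ^ (univ.filter (fun p : Fin (n + 1) × Fin (n + 1) =>
              p.1 < p.2 ∧ G.Adj p.1 p.2 ∧ f p.1 < f p.2)).card) * ∏ a : Fin (n + 1), X (f a)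
          : MvPolynomial (Fin N) (Polynomial ℤ))
        = ∑ p : Nat.Partition (n + 1), C ((c p).map (Nat.castRingHom ℤ)) *
            (p.parts.map (fun i => esymm (Fin N) (Polynomial ℤ) i)).prod) ∧
      ∀ c' : Nat.Partition (n + 1) → Polynomial ℤ,
        (∀ N : ℕ,
          (∑ f ∈ univ.filter (fun f : Fin (n + 1) → Fin N => ∀ a b, G.Adj a b → f a ≠ f b),
              C (Polynomial.X ^ (univ.filter (fun p : Fin (n + 1) × Fin (n + 1) =>
                p.1 < p.2 ∧ G.Adj p.1 p.2 ∧ f p.1 < f p.2)).card) * ∏ a : Fin (n + 1), X (f a)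
            : MvPolynomial (Fin N) (Polynomial ℤ))
          = ∑ p : Nat.Partition (n + 1), C (c' p) *
              (p.parts.map (fun i => esymm (Fin N) (Polynomial ℤ) i)).prod) →
        ∀ p, c' p = (c p).map (Nat.castRingHom ℤ) := by
  classical
  -- the function `h`
  obtain ⟨adjN, hadjN⟩ : ∃ adjN : ℕ → ℕ → Prop, adjN = fun a b =>
      ∃ (ha : a < n + 1) (hb : b < n + 1), G.Adj ⟨a, ha⟩ ⟨b, hb⟩ := ⟨_, rfl⟩
  have hadj : ∀ a b : Fin (n + 1), adjN a b ↔ G.Adj a b := by
    intro a b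
    rw [hadjN]
    exact ⟨fun ⟨_, _, h⟩ => h, fun h => ⟨a.2, b.2, h⟩⟩
  have hN3 : ∀ a b c, a < b → b < c → adjN a c → adjN a b ∧ adjN b c := by
    intro a b c hab hbc hac
    rw [hadjN] at hac
    obtain ⟨ha, hc, hG⟩ := hac
    have hb : b < n + 1 := by omega
    have := hnui ⟨a, ha⟩ ⟨b, hb⟩ ⟨c, hc⟩ hab hbc hG
    exact ⟨(hadj ⟨a, ha⟩ ⟨b, hb⟩).2 this.1, (hadj ⟨b, hb⟩ ⟨c, hc⟩).2 this.2⟩
  obtain ⟨h, hh⟩ : ∃ h : ℕ → ℕ, h = fun a => Nat.findGreatest (fun b => b = a ∨ adjN a b) n :=
    ⟨_, rfl⟩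
  have h1 : ∀ a, a ≤ n → a ≤ h a := fun a ha => by
    rw [hh]
    exact Nat.le_findGreatest (P := fun b => b = a ∨ adjN a b) ha (Or.inl rfl)
  have h2 : ∀ a, h a ≤ n := fun a => by
    rw [hh]
    exact Nat.findGreatest_le n
  have h3 : ∀ a, a ≤ n → h a = a ∨ adjN a (h a) := fun a ha => by
    rw [hh]
    exact Nat.findGreatest_spec (P := fun b => b = a ∨ adjN a b) ha (Or.inl rfl)
  have h4 : ∀ a b, b ≤ n → adjN a b → b ≤ h a := fun a b hb hab => by
    rw [hh]
    exact Nat.le_findGreatest (P := fun b => b = a ∨ adjN a b) hb (Or.inr hab)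
  have h5 : ∀ a b, a < b → b ≤ n → (b ≤ h a ↔ adjN a b) := by
    intro a b hab hb
    refine ⟨fun hle => ?_, h4 a b hb⟩
    rcases h3 a (by omega) with h0 | h0
    · omega
    · rcases Nat.eq_or_lt_of_le hle with rfl | hlt
      · exact h0
      · exact (hN3 a b (h a) hab hlt h0).1
  have hmono : ∀ a b, a ≤ b → b ≤ n → h a ≤ h b := by
    intro a b hab hb
    rcases Nat.eq_or_lt_of_le hab with rfl | hlt
    · exact le_rfl
    rcases Nat.lt_or_ge b (h a) with hba | hba
    · rcases h3 a (by omega) with h0 | h0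
      · omega
      · exact h4 b (h a) (h2 a) (hN3 a b (h a) hlt hba h0).2
    · exact hba.trans (h1 b hb)
  have hsep' : ∀ a b, a < b → b ≤ n → h a < b → ∃ s, a ≤ s ∧ s ≤ b ∧ ∀ x, x < s → h x ≤ s := by
    intro a b hab hb hlt
    have hna : ¬ G.Adj ⟨a, by omega⟩ ⟨b, by omega⟩ := by
      intro hG
      have := (h5 a b hab hb).2 ((hadj ⟨a, by omega⟩ ⟨b, by omega⟩).2 hG)
      omega
    obtain ⟨s, has, hsb, hs⟩ := hsep ⟨a, by omega⟩ ⟨b, by omega⟩ hab hna
    refine ⟨s, has, hsb, fun x hx => ?_⟩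
    by_contra hcon
    have hsn : (s : ℕ) < n + 1 := s.2
    rcases h3 x (by omega) with h0 | h0
    · omega
    · have hhx := h2 x
      exact hs ⟨x, by omega⟩ ⟨h x, by omega⟩ hx (by rw [Fin.lt_def]; simp only; omega)
        ((hadj ⟨x, by omega⟩ ⟨h x, by omega⟩).1 h0)
  -- the two forms of the colouring sum agree
  have hsum : ∀ N : ℕ,
      (∑ f ∈ univ.filter (fun f : Fin (n + 1) → Fin N => ∀ a b, G.Adj a b → f a ≠ f b),
            C (Polynomial.X ^ (univ.filter (fun p : Fin (n + 1) × Fin (n + 1) =>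
              p.1 < p.2 ∧ G.Adj p.1 p.2 ∧ f p.1 < f p.2)).card) * ∏ a : Fin (n + 1), X (f a)
          : MvPolynomial (Fin N) (Polynomial ℤ))
        = Vale.Agent.P066.chromQ (n + 1) h N := by
    intro N
    unfold Vale.Agent.P066.chromQ
    rw [Finset.sum_filter]
    refine Finset.sum_congr rfl fun f _ => ?_
    have hE : ∀ a b : Fin (n + 1), a < b → ((b : ℕ) ≤ h a ↔ G.Adj a b) := fun a b hab => by
      rw [h5 a b hab (by have := b.2; omega), hadj]
    refine if_congr ⟨fun hp a b hab hle => hp a b ((hE a b hab).1 hle), fun hp a b hG => ?_⟩ ?_ rfl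
    · rcases lt_trichotomy a b with hab | hab | hab
      · exact hp a b hab ((hE a b hab).2 hG)
      · exact absurd (hab ▸ hG) (G.loopless.irrefl _)
      · exact (hp b a hab ((hE b a hab).2 hG.symm)).symm
    · have hF : (univ.filter (fun p : Fin (n + 1) × Fin (n + 1) =>
          p.1 < p.2 ∧ G.Adj p.1 p.2 ∧ f p.1 < f p.2))
          = (univ.filter (fun p : Fin (n + 1) × Fin (n + 1) =>
          p.1 < p.2 ∧ (p.2 : ℕ) ≤ h p.1 ∧ f p.1 < f p.2)) := by
        ext p
        simp only [Finset.mem_filter, Finset.mem_univ, true_and]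
        constructor
        · rintro ⟨hlt, hG, hf⟩
          exact ⟨hlt, (hE _ _ hlt).2 hG, hf⟩
        · rintro ⟨hlt, hG, hf⟩
          exact ⟨hlt, (hE _ _ hlt).1 hG, hf⟩
      rw [hF]
  simp only [hsum]
  exact Vale.Agent.P066.sep_epos n h hmono (fun a ha => ⟨h1 a ha, h2 a⟩) hsep'

end Vale.Agent.Results.P066.GraphFormCliqueInteriors
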