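import Vale.Agent.P066.Final

/-!
# P066: `ℕ[q]` `e`-positivity for chains of melted cliques

Vertices are `0, ..., n`; `{a, b}` with `a < b` is an edge of `G(h)` iff `b ≤ h a`.
`v 0 = 0 < v 1 < ... < v l = n` are cut vertices.  Each block `[v t, v (t+1)]` is either
* a clique on `v t + 1, ..., v (t+1)` whose first neighbour `v t` is joined to an initial segment
  (front block; a full clique when `h (v t) = v (t+1)`), or
* a clique on `v t, ..., v (t+1) - 1` with `v (t+1)` joined to a final segment `w, ..., v (t+1) - 1`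
  (back block).
-/

namespace Vale.Agent.Results.P066.MeltingChains

open MvPolynomial Finset Vale.Agent.P066

theorem result (n l : ℕ) (h v : ℕ → ℕ) (hv0 : v 0 = 0) (hvl : v l = n)
    (hv : ∀ t, t < l → v t < v (t + 1))
    (hb : ∀ t, t < l →
      (v t < h (v t) ∧ h (v t) ≤ v (t + 1) ∧ ∀ a, v t < a → a < v (t + 1) → h a = v (t + 1)) ∨
      (∃ w, v t < w ∧ w < v (t + 1) ∧ (∀ a, v t ≤ a → a < w → h a = v (t + 1) - 1) ∧
        ∀ a, w ≤ a → a < v (t + 1) → h a = v (t + 1))) :
    ∃ c : Nat.Partition (n + 1) → Polynomial ℕ, ∀ N,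
      chromQ (n + 1) h N
        = ∑ p : Nat.Partition (n + 1), C ((c p).map (Nat.castRingHom ℤ)) * ePart N p :=
  chain_epos n l h v hv0 hvl hv hb

end Vale.Agent.Results.P066.MeltingChains
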